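import Crest.Agent.R345.Main

/-! The PPT channel on `21 × 21` matrices whose square is not entanglement breaking. -/

set_option autoImplicit false

namespace Crest.Agent.R345

open Crest.Quantum Matrix
open scoped ComplexOrder Kronecker

def J1 : Matrix (Fin 21) (Fin 10) ℤ := Matrix.of fun a s => if a.val = s.val then 1 else 0
def J2 : Matrix (Fin 21) (Fin 10) ℤ := Matrix.of fun a s => if a.val = s.val + 10 then 1 else 0
def En (m : Fin 21) : Matrix (Fin 21) (Fin 21) ℤ :=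
  Matrix.of fun a b => if a = 20 ∧ b = m then 1 else 0

lemma cz_mul {l m n : Type*} [Fintype m] (A : Matrix l m ℤ) (B : Matrix m n ℤ) :
    cz A * cz B = cz (A * B) := by
  ext i j
  simp [Matrix.mul_apply]

lemma cz_tr {m n : Type*} (A : Matrix m n ℤ) : (cz A)ᴴ = cz Aᵀ := by
  ext i j
  simp

lemma J11 : (cz J1)ᴴ * cz J1 = 1 := by
  rw [cz_tr, cz_mul, show J1ᵀ * J1 = 1 by decide +kernel]
  simp
lemma J22 : (cz J2)ᴴ * cz J2 = 1 := by
  rw [cz_tr, cz_mul, show J2ᵀ * J2 = 1 by decide +kernel]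
  simp
lemma J12 : (cz J1)ᴴ * cz J2 = 0 := by
  rw [cz_tr, cz_mul, show J1ᵀ * J2 = 0 by decide +kernel]
  simp
lemma J21 : (cz J2)ᴴ * cz J1 = 0 := by
  rw [cz_tr, cz_mul, show J2ᵀ * J1 = 0 by decide +kernel]
  simp
lemma J1E (m : Fin 21) : (cz J1)ᴴ * cz (En m) = 0 := by
  ext s b
  simp only [Matrix.mul_apply, conjTranspose_apply, map_apply, J1, En, of_apply,
    Matrix.zero_apply]
  refine Finset.sum_eq_zero fun a _ => ?_
  by_cases h : a = 20
  · have : a.val ≠ s.val := by subst h; have := s.2; simp; omega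
    simp [this]
  · simp [h]
lemma J2E (m : Fin 21) : (cz J2)ᴴ * cz (En m) = 0 := by
  ext s b
  simp only [Matrix.mul_apply, conjTranspose_apply, map_apply, J2, En, of_apply,
    Matrix.zero_apply]
  refine Finset.sum_eq_zero fun a _ => ?_
  by_cases h : a = 20
  · have : a.val ≠ s.val + 10 := by subst h; have := s.2; simp; omega
    simp [this]
  · simp [h]

lemma En_eq (m : Fin 21) : cz (En m) = Matrix.single 20 m 1 := by
  ext a b
  simp [En, Matrix.single_apply, eq_comm]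

lemma En_sum : ∑ m, (cz (En m))ᴴ * cz (En m) = 1 := by
  simp only [En_eq, conjTranspose_single, single_mul_single_same, star_one, mul_one]
  exact sum_single_one

lemma En_sym : SymOut (fun m => cz (En m)) := by
  intro X
  simp only [kmap, En_eq, conjTranspose_single, star_one, single_mul_mul_single, transpose_sum,
    transpose_single]

lemma kmap_sum {ι ι' d e : Type*} [Fintype ι] [Fintype ι'] [Fintype d]
    (A : ι → Matrix e d ℂ) (B : ι' → Matrix e d ℂ) (X : Matrix d d ℂ) :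
    kmap (Sum.elim A B) X = kmap A X + kmap B X := by
  simp [kmap, Fintype.sum_sum_type]

theorem exists_channel :
    ∃ Θ : Matrix (Fin 21) (Fin 21) ℂ → Matrix (Fin 21) (Fin 21) ℂ,
      IsChannel Θ ∧ IsPPT Θ ∧ ¬ IsEntanglementBreaking (Θ ∘ Θ) := by
  set T1 : Fin 7 × Fin 7 → Matrix (Fin 21) (Fin 21) ℂ := fun q => cz J2 * K1 q * (cz J1)ᴴ with hT1
  set T2 : Fin 7 × Fin 7 → Matrix (Fin 21) (Fin 21) ℂ := fun q => cz J1 * K2 q * (cz J2)ᴴ with hT2
  obtain ⟨γ, hγ, B, hB⟩ := exists_completion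
    ((∑ q, (T1 q)ᴴ * T1 q) + ∑ q, (T2 q)ᴴ * T2 q) (by
      refine IsHermitian.add ?_ ?_ <;>
        exact (posSemidef_sum _ fun q _ => posSemidef_conjTranspose_mul_self _).isHermitian)
  have hγs : star (γ : ℂ) = γ := Complex.conj_ofReal _
  have hγ0 : (γ : ℂ) ≠ 0 := by exact_mod_cast hγ.ne'
  set U1 : Fin 7 × Fin 7 → Matrix (Fin 21) (Fin 21) ℂ :=
    fun q => ((γ : ℂ) • cz J2) * K1 q * (cz J1)ᴴ with hU1
  set U2 : Fin 7 × Fin 7 → Matrix (Fin 21) (Fin 21) ℂ :=
    fun q => ((γ : ℂ) • cz J1) * K2 q * (cz J2)ᴴ with hU2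
  set U3 : Fin 21 → Matrix (Fin 21) (Fin 21) ℂ := fun m => 1 * cz (En m) * B with hU3
  have hs1 : SymOut U1 := K1_sym.mul _ (by
    rw [conjTranspose_smul, transpose_smul, hγs, cz_real]) _
  have hs2 : SymOut U2 := K2_sym.mul _ (by
    rw [conjTranspose_smul, transpose_smul, hγs, cz_real]) _
  have hs3 : SymOut U3 := En_sym.mul _ (by simp) _
  set U := Sum.elim (Sum.elim U1 U2) U3 with hU
  have hΘ : ∀ X, kmap U X = kmap U1 X + kmap U2 X + kmap U3 X := by
    intro X; rw [hU, kmap_sum, kmap_sum]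
  have hs : SymOut U := by
    intro X
    rw [hΘ, transpose_add, transpose_add, hs1, hs2, hs3]
  refine ⟨kmap U, ⟨kmap_linear _, kmap_cp _, ?_⟩, hs.ppt, ?_⟩
  · intro X
    rw [trace_kmap]
    have : ∑ i, (U i)ᴴ * U i = 1 := by
      rw [← hB, hU, Fintype.sum_sum_type, Fintype.sum_sum_type, smul_add, Finset.smul_sum,
        Finset.smul_sum]
      congr 1
      · congr 1 <;> refine Finset.sum_congr rfl fun q _ => ?_
        · simp only [Sum.elim_inl, hU1, hT1, Matrix.smul_mul, conjTranspose_smul, hγs,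
            Matrix.mul_smul, smul_smul]
        · simp only [Sum.elim_inl, Sum.elim_inr, hU2, hT2, Matrix.smul_mul, conjTranspose_smul,
            hγs, Matrix.mul_smul, smul_smul]
      · simp only [Sum.elim_inr, hU3, Matrix.one_mul, conjTranspose_mul]
        have : ∀ m, Bᴴ * (cz (En m))ᴴ * (cz (En m) * B) = Bᴴ * ((cz (En m))ᴴ * cz (En m)) * B := by
          intro m; simp only [Matrix.mul_assoc]
        simp only [this, ← Matrix.sum_mul, ← Matrix.mul_sum, En_sum, Matrix.mul_one]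
    rw [this, Matrix.one_mul]
  · intro hEB
    have h1 := eb_conj hEB ((((γ : ℂ) * γ)⁻¹) • (cz J1)ᴴ) (cz J1)
    have h3 : ∀ (J : Matrix (Fin 21) (Fin 10) ℂ), (∀ m, Jᴴ * cz (En m) = 0) →
        ∀ Y, Jᴴ * kmap U3 Y * J = 0 := by
      intro J hJ Y
      simp only [kmap, hU3, Matrix.one_mul, Matrix.mul_sum, ← Matrix.mul_assoc, hJ,
        Matrix.zero_mul, Finset.sum_const_zero]
    have hA : ∀ Y, (cz J1)ᴴ * kmap U Y * cz J1 =
        ((γ : ℂ) * γ) • kmap K2 ((cz J2)ᴴ * Y * cz J2) := by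
      intro Y
      rw [hΘ, Matrix.mul_add, Matrix.mul_add, Matrix.add_mul, Matrix.add_mul, h3 _ J1E, hU1, hU2,
        kmap_mul, kmap_mul]
      simp only [conjTranspose_smul, hγs, Matrix.smul_mul, Matrix.mul_smul, ← Matrix.mul_assoc,
        J12, J11, Matrix.zero_mul, smul_zero, zero_add, add_zero, Matrix.one_mul,
        conjTranspose_conjTranspose, smul_smul]
      rw [Matrix.mul_assoc _ (cz J1)ᴴ, J11, Matrix.mul_one]
    have hBB : ∀ Y, (cz J2)ᴴ * kmap U Y * cz J2 =
        ((γ : ℂ) * γ) • kmap K1 ((cz J1)ᴴ * Y * cz J1) := by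
      intro Y
      rw [hΘ, Matrix.mul_add, Matrix.mul_add, Matrix.add_mul, Matrix.add_mul, h3 _ J2E, hU1, hU2,
        kmap_mul, kmap_mul]
      simp only [conjTranspose_smul, hγs, Matrix.smul_mul, Matrix.mul_smul, ← Matrix.mul_assoc,
        J21, J22, Matrix.zero_mul, smul_zero, add_zero, Matrix.one_mul,
        conjTranspose_conjTranspose, smul_smul]
      rw [Matrix.mul_assoc _ (cz J2)ᴴ, J22, Matrix.mul_one]
    have h2 : (fun X : Matrix (Fin 10) (Fin 10) ℂ => ((((γ : ℂ) * γ)⁻¹) • (cz J1)ᴴ) *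
        (kmap U ∘ kmap U) (cz J1 * X * (cz J1)ᴴ) * ((((γ : ℂ) * γ)⁻¹) • (cz J1)ᴴ)ᴴ) =
        kmap K21 := by
      funext X
      rw [← comp_eq]
      simp only [Function.comp, conjTranspose_smul, conjTranspose_conjTranspose, star_inv₀,
        star_mul', hγs, Matrix.smul_mul, Matrix.mul_smul, hA, hBB, (kmap_linear K2).map_smul,
        smul_smul]
      have : (cz J1)ᴴ * (cz J1 * X * (cz J1)ᴴ) * cz J1 = X := by
        simp only [← Matrix.mul_assoc, J11, Matrix.one_mul]
        rw [Matrix.mul_assoc, J11, Matrix.mul_one]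
      rw [this]
      have h4 : ((γ : ℂ) * γ)⁻¹ * (((γ : ℂ) * γ)⁻¹ * ((γ : ℂ) * γ * ((γ : ℂ) * γ))) = 1 := by
        field_simp
      rw [h4, one_smul]
    rw [h2] at h1
    exact K21_prodFree.not_eb K21_ne h1

end Crest.Agent.R345
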