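import Crest.Agent.R345.Data

/-! No product of two quadrics lies in the span of the fifteen quartic minors. -/

set_option autoImplicit false

namespace Crest.Agent.R345

section field
variable {κ : Type*} [Field κ]

lemma cast_emod (hp : (pr : κ) = 0) (x : ℤ) : ((x % (pr : ℤ) : ℤ) : κ) = (x : κ) := by
  rw [Int.emod_def]
  push_cast
  rw [hp]; ring

lemma dotL_ofFn : ∀ (n : ℕ) (y : Fin n → κ) (c : Fin n → ℕ),
    dotL (List.ofFn y) (List.ofFn c) = ∑ i, y i * (c i : κ) := by
  intro n
  induction n with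
  | zero => intro y c; simp [dotL]
  | succ n ih =>
    intro y c
    rw [List.ofFn_succ, List.ofFn_succ, dotL, ih, Fin.sum_univ_succ]

lemma countP_ofFn {α : Type*} (P : α → Bool) : ∀ (n : ℕ) (y : Fin n → α),
    (List.ofFn y).countP P = ∑ i, if P (y i) = true then 1 else 0 := by
  intro n
  induction n with
  | zero => intro y; simp
  | succ n ih =>
    intro y
    rw [List.ofFn_succ, List.countP_cons, ih, Fin.sum_univ_succ, add_comm]

open Classical in
/-- a non-zero quadric vanishes at no more than nine of the nineteen points -/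
lemma zeros_le (hp : (pr : κ) = 0) (u : Fin 10 → κ) (hu : u ≠ 0) :
    (∑ i : Fin 19, if ∑ s, ((nu (Pt i) s : ℤ) : κ) * u s = 0 then 1 else 0) ≤ 9 := by
  set ev : Fin (10 + 9) → κ := fun i => ∑ s, ((nu (Pt i) s : ℤ) : κ) * u s with hev
  set y : Fin 10 → κ := fun i => ev (Fin.castAdd 9 i) with hy
  have hy0 : y ≠ 0 := by
    intro h
    apply hu
    funext s
    have h1 : ∑ i, ((NN s i : ℤ) : κ) * y i = u s := by
      simp only [hy, hev, Finset.mul_sum]
      rw [Finset.sum_comm]
      have : ∀ t, ∑ i : Fin 10, ((NN s i : ℤ) : κ) *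
          (((nu (Pt (Fin.castAdd 9 i)) t : ℤ) : κ) * u t) = (if s = t then 1 else 0) * u t := by
        intro t
        have h2 := congrArg (Int.cast : ℤ → κ) (NN_nu s t)
        rw [cast_emod hp] at h2
        push_cast at h2
        rw [← h2, Finset.sum_mul]
        exact Finset.sum_congr rfl fun i _ => by ring
      simp [this]
    rw [← h1, h]
    simp
  have hz : ∀ j : Fin 9, ev (Fin.natAdd 10 j) = ∑ i, y i * (Mc j i : κ) := by
    intro j
    simp only [hy, hev, Finset.sum_mul]
    rw [Finset.sum_comm]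
    refine Finset.sum_congr rfl fun t _ => ?_
    have h2 := congrArg (Int.cast : ℤ → κ) (Mc_nu j t)
    rw [cast_emod hp] at h2
    push_cast at h2
    rw [sub_eq_zero] at h2
    rw [← h2, Finset.sum_mul]
    exact Finset.sum_congr rfl fun i _ => by ring
  have hw : wt (List.ofFn y) = ∑ i, if y i ≠ 0 then 1 else 0 := by
    simp only [wt, countP_ofFn, decide_eq_true_eq]
  have hw0 : wt (List.ofFn y) ≠ 0 := by
    rw [hw]
    intro h
    apply hy0
    funext i
    have := (Finset.sum_eq_zero_iff.1 h) i (Finset.mem_univ _)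
    simpa using this
  have hlt := chk_sound (κ := κ) pr pr_prime hp 10 Mcols chk_Mcols (by decide) (List.ofFn y)
    (by simp) hw0
  have hzc : zc (List.ofFn y) Mcols = ∑ j : Fin 9, if ev (Fin.natAdd 10 j) = 0 then 1 else 0 := by
    rw [Mcols_eq]
    simp only [zc, countP_ofFn, decide_eq_true_eq, dotL_ofFn, hz]
  have hsum : (∑ i : Fin 10, if y i = 0 then 1 else 0) + (∑ i, if y i ≠ 0 then 1 else 0) = 10 := by
    rw [← Finset.sum_add_distrib]
    have : ∀ i, ((if y i = 0 then 1 else 0) + (if y i ≠ 0 then 1 else 0) : ℕ) = 1 := by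
      intro i; by_cases h : y i = 0 <;> simp [h]
    simp only [this]
    simp
  change (∑ i : Fin (10 + 9), if ev i = 0 then 1 else 0) ≤ 9
  rw [Fin.sum_univ_add]
  change (∑ i : Fin 10, if y i = 0 then 1 else 0) + _ ≤ 9
  omega

lemma core (hp : (pr : κ) = 0) (u v : Fin 10 → κ) (hu : u ≠ 0) (hv : v ≠ 0) (y0 : κ)
    (d : Fin 15 → κ) (hy : y0 ≠ 0 ∨ d ≠ 0)
    (h : ∀ b : Fin 4 → ℤ, y0 * ((∑ s, ((nu b s : ℤ) : κ) * u s) * ∑ s, ((nu b s : ℤ) : κ) * v s)
      = ∑ J, d J * ((δ J b : ℤ) : κ)) : False := by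
  classical
  by_cases h0 : y0 = 0
  · have hd : d ≠ 0 := hy.resolve_left (not_not.2 h0)
    apply hd
    funext J'
    have h1 : ∀ k, ∑ J, d J * ((DQ J k : ℤ) : κ) = 0 := by
      intro k
      have := h (Qt k)
      rw [h0, zero_mul] at this
      rw [this]
      refine Finset.sum_congr rfl fun J _ => ?_
      rw [← δ_Qt, cast_emod hp]
    have h2 : ∑ k, (∑ J, d J * ((DQ J k : ℤ) : κ)) * ((DI k J' : ℤ) : κ) = d J' := by
      simp only [Finset.sum_mul]
      rw [Finset.sum_comm]
      have : ∀ J, ∑ k, d J * ((DQ J k : ℤ) : κ) * ((DI k J' : ℤ) : κ) =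
          d J * if J = J' then 1 else 0 := by
        intro J
        have h2 := congrArg (Int.cast : ℤ → κ) (DQ_DI J J')
        rw [cast_emod hp] at h2
        push_cast at h2
        rw [← h2, Finset.mul_sum]
        exact Finset.sum_congr rfl fun i _ => by ring
      simp [this]
    rw [← h2]
    simp [h1]
  · have h1 := zeros_le hp u hu
    have h2 := zeros_le hp v hv
    have h3 : ∑ _i : Fin 19, 1 ≤
        (∑ i : Fin 19, if ∑ s, ((nu (Pt i) s : ℤ) : κ) * u s = 0 then 1 else 0) +
        (∑ i : Fin 19, if ∑ s, ((nu (Pt i) s : ℤ) : κ) * v s = 0 then 1 else 0) := by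
      rw [← Finset.sum_add_distrib]
      refine Finset.sum_le_sum fun i _ => ?_
      have h4 := h (Pt i)
      have h5 : ∑ J, d J * ((δ J (Pt i) : ℤ) : κ) = 0 := by
        refine Finset.sum_eq_zero fun J _ => ?_
        rw [← cast_emod hp, δ_Pt]
        simp
      rw [h5] at h4
      rcases mul_eq_zero.1 ((mul_eq_zero.1 h4).resolve_left h0) with h6 | h6 <;> simp [h6]
    simp only [Finset.sum_const, Finset.card_univ, Fintype.card_fin, smul_eq_mul] at h3
    omega

end field

lemma exists_val : ∃ O : ValuationSubring ℂ, ((pr : ℕ) : ℂ) ∈ O.nonunits := by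
  have hI : (Ideal.span {((pr : ℕ) : (⊥ : Subring ℂ))}) ≠ ⊤ := by
    rw [Ne, Ideal.span_singleton_eq_top]
    intro hu
    obtain ⟨x, hx⟩ := hu.exists_right_inv
    obtain ⟨n, hn⟩ := Subring.mem_bot.1 x.2
    have h1 : ((pr : ℕ) : ℂ) * (n : ℂ) = 1 := by
      have := congrArg Subtype.val hx
      simpa [hn] using this
    have h2 : ((pr : ℕ) : ℤ) * n = 1 := by exact_mod_cast h1
    have h3 := Int.isUnit_iff_natAbs_eq.1 (IsUnit.of_mul_eq_one _ h2)
    simp [pr] at h3
  obtain ⟨O, -, hO⟩ := Ideal.image_subset_nonunits_valuationSubring _ hI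
  exact ⟨O, hO ⟨_, Ideal.mem_span_singleton_self _, by simp⟩⟩

lemma exists_scale (O : ValuationSubring ℂ) {n : Type*} [Fintype n] (x : n → ℂ) (hx : x ≠ 0) :
    ∃ (t : ℂ) (x' : n → O), t ≠ 0 ∧ (∀ i, x i = t * x' i) ∧ ∃ i, x' i = 1 := by
  obtain ⟨j, hj⟩ := Function.ne_iff.1 hx
  obtain ⟨i0, -, hi0⟩ := Finset.exists_max_image Finset.univ (fun i => O.valuation (x i))
    ⟨j, Finset.mem_univ _⟩
  have h0 : x i0 ≠ 0 := by
    intro h
    have := hi0 j (Finset.mem_univ _)
    rw [h, map_zero, le_zero_iff, map_eq_zero] at this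
    exact hj this
  have hm : ∀ i, x i / x i0 ∈ O := by
    intro i
    rw [← O.valuation_le_one_iff, map_div₀]
    exact div_le_one_of_le₀ (hi0 i (Finset.mem_univ _)) zero_le
  refine ⟨x i0, fun i => ⟨x i / x i0, hm i⟩, h0, fun i => ?_, i0, Subtype.ext ?_⟩
  · simp only
    field_simp
  · simp [h0]

theorem core_complex (u v : Fin 10 → ℂ) (d : Fin 15 → ℂ)
    (h : ∀ b : Fin 4 → ℤ, ((∑ s, ((nu b s : ℤ) : ℂ) * u s) * ∑ s, ((nu b s : ℤ) : ℂ) * v s)
      = ∑ J, d J * ((δ J b : ℤ) : ℂ)) : u = 0 ∨ v = 0 := by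
  by_contra hne
  push Not at hne
  obtain ⟨O, hO⟩ := exists_val
  obtain ⟨s, u', hs, hu, i1, hi1⟩ := exists_scale O u hne.1
  obtain ⟨t, v', ht, hv, i2, hi2⟩ := exists_scale O v hne.2
  obtain ⟨r, y', hr, hy, i3, hi3⟩ := exists_scale O
    (fun o : Option (Fin 15) => o.elim (s * t) d) (by
      intro h0
      have := congrFun h0 none
      simp [hs, ht] at this)
  set φ := IsLocalRing.residue O with hφ
  have hp : ((pr : ℕ) : IsLocalRing.ResidueField O) = 0 := by
    rw [← map_natCast φ, hφ, IsLocalRing.residue_eq_zero_iff, ← O.coe_mem_nonunits_iff]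
    simpa using hO
  refine core hp (fun i => φ (u' i)) (fun i => φ (v' i)) ?_ ?_ (φ (y' none))
    (fun J => φ (y' (some J))) ?_ ?_
  · intro h0
    have := congrFun h0 i1
    simp [hi1] at this
  · intro h0
    have := congrFun h0 i2
    simp [hi2] at this
  · cases i3 with
    | none => left; simp [hi3]
    | some J =>
      right
      intro h0
      have := congrFun h0 J
      simp [hi3] at this
  · intro b
    have h1 : y' none * ((∑ s, ((nu b s : ℤ) : O) * u' s) * ∑ s, ((nu b s : ℤ) : O) * v' s)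
        = ∑ J, y' (some J) * ((δ J b : ℤ) : O) := by
      apply Subtype.ext
      apply mul_left_cancel₀ hr
      have h2 := h b
      have h3 := hy none
      have h4 : ∀ J, d J = r * y' (some J) := fun J => hy (some J)
      simp only [Option.elim] at h3
      simp only [hu, hv, h4] at h2
      push_cast
      rw [← mul_assoc, ← h3, Finset.mul_sum _ _ r]
      simp only [← mul_assoc r]
      rw [← h2]
      simp only [mul_left_comm _ s, mul_left_comm _ t, ← Finset.mul_sum]
      ring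
    have := congrArg φ h1
    simpa only [map_mul, map_sum, map_intCast] using this

lemma det4_eq {R : Type*} [CommRing R] (x : Fin 4 → Fin 4 → R) :
    det4 (x 0) (x 1) (x 2) (x 3) = (Matrix.of x).det := by
  simp [det4, Matrix.det_succ_row_zero, Fin.sum_univ_succ, Fin.succAbove]
  ring

/-- the function `b ↦ δ J b` -/
noncomputable def δf (J : Fin 15) : (Fin 4 → ℤ) → ℂ := fun b => ((δ J b : ℤ) : ℂ)

lemma det6_mem (f : Fin 4 → Fin 6) :
    (fun b : Fin 4 → ℤ => (Matrix.of fun c a => ((Kv (f c).castSucc b a : ℤ) : ℂ)).det) ∈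
      Submodule.span ℂ (Set.range δf) := by
  by_cases hf : Function.Injective f
  · set σ := Tuple.sort f
    have hm : StrictMono (f ∘ σ) :=
      (Tuple.monotone_sort f).strictMono_of_injective (hf.comp σ.injective)
    obtain ⟨J, h0, h1, h2, h3⟩ := G_surj (f (σ 0)) (f (σ 1)) (f (σ 2)) (f (σ 3))
      ⟨hm (by decide : (0 : Fin 4) < 1), hm (by decide : (1 : Fin 4) < 2),
        hm (by decide : (2 : Fin 4) < 3)⟩
    have : (fun b : Fin 4 → ℤ => (Matrix.of fun c a => ((Kv (f c).castSucc b a : ℤ) : ℂ)).det) =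
        ((Equiv.Perm.sign σ : ℤ) : ℂ) • δf J := by
      funext b
      have h4 : δf J b =
          ((Matrix.of fun c a => ((Kv (f c).castSucc b a : ℤ) : ℂ)).submatrix σ id).det := by
        rw [δf, δ, h0, h1, h2, h3]
        rw [show ((Matrix.of fun c a => ((Kv (f c).castSucc b a : ℤ) : ℂ)).submatrix σ id) =
          Matrix.of fun c a => ((Kv (f (σ c)).castSucc b a : ℤ) : ℂ) from rfl, ← det4_eq]
        simp [det4]
      rw [Pi.smul_apply, h4, Matrix.det_permute, smul_eq_mul, ← mul_assoc]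
      rcases Int.units_eq_one_or (Equiv.Perm.sign σ) with h | h <;> simp [h]
    rw [this]
    exact Submodule.smul_mem _ _ (Submodule.subset_span ⟨J, rfl⟩)
  · obtain ⟨i, j, hij, hne⟩ := Function.not_injective_iff.1 hf
    have : (fun b : Fin 4 → ℤ => (Matrix.of fun c a => ((Kv (f c).castSucc b a : ℤ) : ℂ)).det) =
        0 := by
      funext b
      refine Matrix.det_zero_of_row_eq hne ?_
      funext a
      simp [hij]
    rw [this]
    exact Submodule.zero_mem _

lemma det7_mem (f : Fin 4 → Fin 7) :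
    (fun b : Fin 4 → ℤ => (Matrix.of fun c a => ((Kv (f c) b a : ℤ) : ℂ)).det) ∈
      Submodule.span ℂ (Set.range δf) := by
  have : (fun b : Fin 4 → ℤ => (Matrix.of fun c a => ((Kv (f c) b a : ℤ) : ℂ)).det) =
      ∑ g : Fin 4 → Fin 6, (∏ c, ((co (f c) (g c) : ℤ) : ℂ)) •
        (fun b : Fin 4 → ℤ => (Matrix.of fun c a => ((Kv (g c).castSucc b a : ℤ) : ℂ)).det) := by
    funext b
    have h1 : (Matrix.of fun c a => ((Kv (f c) b a : ℤ) : ℂ)) =
        fun c => ∑ s : Fin 6, ((co (f c) s : ℤ) : ℂ) • fun a => ((Kv s.castSucc b a : ℤ) : ℂ) := by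
      funext c a
      simp only [Matrix.of_apply, Finset.sum_apply, Pi.smul_apply, smul_eq_mul, Kv,
        K_co (f c)]
      push_cast
      simp only [Finset.sum_mul, ← Finset.sum_add_distrib]
      exact Finset.sum_congr rfl fun s _ => by ring
    rw [h1, Finset.sum_apply]
    refine ((Matrix.detRowAlternating (n := Fin 4) (R := ℂ)).toMultilinearMap.map_sum _).trans ?_
    refine Finset.sum_congr rfl fun g _ => ?_
    rw [MultilinearMap.map_smul_univ]
    rfl
  rw [this]
  exact Submodule.sum_mem _ fun g _ => Submodule.smul_mem _ _ (det6_mem g)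

theorem core_final {ι : Type*} [Fintype ι] (F : ι → Fin 4 → Fin 7) (u v : Fin 10 → ℂ)
    (c : ι → ℂ)
    (h : ∀ b : Fin 4 → ℤ, ((∑ s, ((nu b s : ℤ) : ℂ) * u s) * ∑ s, ((nu b s : ℤ) : ℂ) * v s)
      = ∑ q, c q * ((det4 (Kv (F q 0) b) (Kv (F q 1) b) (Kv (F q 2) b) (Kv (F q 3) b) : ℤ) : ℂ)) :
    u = 0 ∨ v = 0 := by
  have hmem : (∑ q, c q • fun b : Fin 4 → ℤ =>
      (Matrix.of fun c a => ((Kv (F q c) b a : ℤ) : ℂ)).det) ∈ Submodule.span ℂ (Set.range δf) :=
    Submodule.sum_mem _ fun q _ => Submodule.smul_mem _ _ (det7_mem (F q))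
  obtain ⟨d, hd⟩ := (Submodule.mem_span_range_iff_exists_fun ℂ).1 hmem
  refine core_complex u v d fun b => ?_
  have := congrFun hd b
  simp only [Finset.sum_apply, Pi.smul_apply, smul_eq_mul, δf] at this
  rw [h, this]
  refine Finset.sum_congr rfl fun q _ => ?_
  rw [← det4_eq]
  simp [det4]

end Crest.Agent.R345
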