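import Mathlib
import Crest.Prelude.Def_Entanglement

/-! Maps in Kraus form: linearity, complete positivity, Choi matrix, entanglement breaking. -/

set_option autoImplicit false
set_option linter.unusedSectionVars false

namespace Crest.Agent.R345

open Crest.Quantum Matrix
open scoped ComplexOrder Kronecker

variable {ι ι' d e f : Type*} [Fintype ι] [Fintype ι'] [Fintype d] [Fintype e] [Fintype f]
  [DecidableEq d] [DecidableEq e] [DecidableEq f]

/-- the map with Kraus operators `K i` -/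
noncomputable def kmap (K : ι → Matrix e d ℂ) (X : Matrix d d ℂ) : Matrix e e ℂ :=
  ∑ i, K i * X * (K i)ᴴ

lemma kmap_linear (K : ι → Matrix e d ℂ) : IsLinearMap ℂ (kmap K) := by
  constructor
  · intro X Y
    simp [kmap, Matrix.mul_add, Matrix.add_mul, Finset.sum_add_distrib]
  · intro c X
    simp [kmap, Finset.smul_sum]

lemma blockwise_conj {k : Type*} [Fintype k] [DecidableEq k] (L : Matrix e d ℂ)
    (M : Matrix (k × d) (k × d) ℂ) :
    blockwise (fun X : Matrix d d ℂ => L * X * Lᴴ) M =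
      ((1 : Matrix k k ℂ) ⊗ₖ L) * M * ((1 : Matrix k k ℂ) ⊗ₖ L)ᴴ := by
  ext ⟨s, a⟩ ⟨t, b⟩
  simp [blockwise, block, Matrix.mul_apply, Fintype.sum_prod_type, Matrix.one_apply,
    apply_ite (star : ℂ → ℂ)]

lemma blockwise_comp {k : Type*} (Φ : Matrix e e ℂ → Matrix f f ℂ)
    (Ψ : Matrix d d ℂ → Matrix e e ℂ) (M : Matrix (k × d) (k × d) ℂ) :
    blockwise (fun X => Φ (Ψ X)) M = blockwise Φ (blockwise Ψ M) := rfl

lemma kmap_cp (K : ι → Matrix e d ℂ) : IsCompletelyPositive (kmap K) := by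
  intro k M hM
  have : blockwise (k := Fin k) (kmap K) M =
      ∑ i, blockwise (k := Fin k) (fun X : Matrix d d ℂ => K i * X * (K i)ᴴ) M := by
    ext p q
    simp [blockwise, kmap, Matrix.sum_apply]
  rw [this]
  refine posSemidef_sum _ fun i _ => ?_
  rw [blockwise_conj]
  exact hM.mul_mul_conjTranspose_same _

lemma kmap_comp (L : ι' → Matrix f e ℂ) (K : ι → Matrix e d ℂ) :
    kmap L ∘ kmap K = kmap (fun q : ι' × ι => L q.1 * K q.2) := by
  funext X
  simp [kmap, Fintype.sum_prod_type, Matrix.mul_sum, Matrix.sum_mul, Matrix.mul_assoc]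

/-- the output of the map is always a symmetric matrix -/
def SymOut (K : ι → Matrix e d ℂ) : Prop := ∀ X, (kmap K X)ᵀ = kmap K X

lemma SymOut.ppt {K : ι → Matrix e d ℂ} (h : SymOut K) : IsPPT (kmap K) := by
  refine ⟨kmap_cp K, ?_⟩
  have : (fun M => (kmap K M)ᵀ) = kmap K := funext h
  rw [this]
  exact kmap_cp K

lemma symOut_of_flat (K : ι → Matrix e d ℂ) (hr : ∀ i a b, star (K i a b) = K i a b)
    (h : ∀ a b c b', ∑ i, K i a b * K i c b' = ∑ i, K i c b * K i a b') : SymOut K := by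
  intro X
  ext a c
  have key : ∀ a c, kmap K X a c = ∑ b', ∑ b, X b b' * ∑ i, K i a b * K i c b' := by
    intro a c
    simp only [kmap, Matrix.sum_apply, Matrix.mul_apply, conjTranspose_apply, hr,
      Finset.sum_mul, Finset.mul_sum]
    rw [Finset.sum_comm]
    refine Finset.sum_congr rfl fun b' _ => ?_
    rw [Finset.sum_comm]
    refine Finset.sum_congr rfl fun b _ => Finset.sum_congr rfl fun i _ => by ring
  rw [transpose_apply, key, key]
  simp only [h a]

lemma kmap_mul {g : Type*} [Fintype g] [DecidableEq g] (K : ι → Matrix e d ℂ) (L : Matrix f e ℂ)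
    (R : Matrix d g ℂ) (X : Matrix g g ℂ) :
    kmap (fun i => L * K i * R) X = L * kmap K (R * X * Rᴴ) * Lᴴ := by
  simp [kmap, Matrix.mul_sum, Matrix.sum_mul, Matrix.mul_assoc]

lemma SymOut.mul {g : Type*} [Fintype g] [DecidableEq g] {K : ι → Matrix e d ℂ} (h : SymOut K)
    (L : Matrix f e ℂ) (hL : Lᴴ = Lᵀ) (R : Matrix d g ℂ) :
    SymOut (fun i => L * K i * R) := by
  intro X
  rw [kmap_mul, hL, transpose_mul, transpose_mul, transpose_transpose, h,
    ← Matrix.mul_assoc]

lemma choi_kmap (K : ι → Matrix e d ℂ) (p q : d × e) :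
    choiMatrix (kmap K) p q = ∑ i, K i p.2 p.1 * star (K i q.2 q.1) := by
  simp only [choiMatrix, kmap, of_apply, Matrix.sum_apply]
  refine Finset.sum_congr rfl fun i _ => ?_
  simp [Matrix.mul_apply, Matrix.single_apply, ite_and]

/-- the span of the Kraus operators contains no non-zero rank-one element -/
def ProdFree (K : ι → Matrix e d ℂ) : Prop :=
  ∀ (u : d → ℂ) (v : e → ℂ) (c : ι → ℂ), (∀ i a, u i * v a = ∑ s, c s * K s a i) → u = 0 ∨ v = 0

lemma ProdFree.range {K : ι → Matrix e d ℂ} (h : ProdFree K) (u : d → ℂ) (v : e → ℂ)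
    (hw : ∃ w, (choiMatrix (kmap K)).mulVec w = fun p => u p.1 * v p.2) : u = 0 ∨ v = 0 := by
  obtain ⟨w, hw⟩ := hw
  refine h u v (fun s => ∑ q : d × e, star (K s q.2 q.1) * w q) fun i a => ?_
  have := congrFun hw (i, a)
  rw [← this]
  simp only [mulVec, dotProduct, choi_kmap, Finset.sum_mul]
  rw [Finset.sum_comm]
  refine Finset.sum_congr rfl fun s _ => Finset.sum_congr rfl fun q _ => by ring

lemma choi_ne_zero {K : ι → Matrix e d ℂ} (s : ι) (a : e) (i : d) (h : K s a i ≠ 0) :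
    choiMatrix (kmap K) ≠ 0 := by
  intro h0
  have h1 := congrFun (congrFun h0 (i, a)) (i, a)
  rw [choi_kmap] at h1
  simp only [Matrix.zero_apply] at h1
  rw [Finset.sum_eq_zero_iff_of_nonneg (fun t _ => mul_star_self_nonneg _)] at h1
  have := h1 s (Finset.mem_univ _)
  simp [h] at this

lemma ProdFree.not_eb {n : ℕ} {K : ι → Matrix e (Fin n) ℂ} (h : ProdFree K)
    (h0 : choiMatrix (kmap K) ≠ 0) : ¬ IsEntanglementBreaking (kmap K) := by
  intro hEB
  set ω : Fin n × Fin n → ℂ := fun p => if p.1 = p.2 then 1 else 0 with hω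
  obtain ⟨r, A, B, hA, hB, hs⟩ := hEB n (vecMulVec ω (star ω)) (posSemidef_vecMulVec_self_star ω)
  have hc : blockwise (k := Fin n) (kmap K) (vecMulVec ω (star ω)) = choiMatrix (kmap K) := by
    ext p q
    simp only [blockwise, choiMatrix, of_apply]
    congr 1
    ext i j
    simp only [block, of_apply, vecMulVec_apply, hω, Pi.star_apply, Matrix.single_apply]
    by_cases h1 : p.1 = i <;> by_cases h2 : q.1 = j <;> simp [h1, h2]
  rw [hc] at hs
  apply h0
  rw [hs]
  refine Finset.sum_eq_zero fun t _ => ?_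
  ext p ⟨j, b⟩
  set S : Submodule ℂ (Fin n × e → ℂ) :=
    Submodule.span ℂ (Set.range fun s => fun p : Fin n × e => K s p.2 p.1) with hS
  have hmem : (fun p : Fin n × e => A t p.1 j * B t p.2 b) ∈ S := by
    by_contra hn
    obtain ⟨φ, hφ, hφS⟩ := Submodule.exists_dual_map_eq_bot_of_notMem hn inferInstance
    set g : Fin n × e → ℂ := fun p => φ (fun q => if p = q then 1 else 0) with hg
    have hφg : ∀ x, φ x = ∑ p, x p * g p := by
      intro x
      rw [LinearMap.pi_apply_eq_sum_univ]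
      simp [hg]
    have hK : ∀ s, ∑ p : Fin n × e, K s p.2 p.1 * g p = 0 := by
      intro s
      rw [← hφg]
      have : φ (fun p : Fin n × e => K s p.2 p.1) ∈ S.map φ :=
        Submodule.mem_map_of_mem (Submodule.subset_span ⟨s, rfl⟩)
      rw [hφS] at this
      simpa using this
    have hq : star (star g) ⬝ᵥ (choiMatrix (kmap K) *ᵥ star g) = 0 := by
      have : choiMatrix (kmap K) *ᵥ star g = 0 := by
        ext p
        simp only [mulVec, dotProduct, choi_kmap, Finset.sum_mul, Pi.zero_apply]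
        rw [Finset.sum_comm]
        refine Finset.sum_eq_zero fun s _ => ?_
        have := congrArg star (hK s)
        simp only [star_sum, star_mul', star_zero] at this
        simp only [mul_assoc, ← Finset.mul_sum, Pi.star_apply, this, mul_zero]
      rw [this, dotProduct_zero]
    rw [hs, Matrix.sum_mulVec, dotProduct_sum] at hq
    have hpsd : ∀ t, (A t ⊗ₖ B t).PosSemidef := fun t => (hA t).kronecker (hB t)
    rw [Finset.sum_eq_zero_iff_of_nonneg
      (fun t _ => (hpsd t).dotProduct_mulVec_nonneg _)] at hq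
    have h1 := ((hpsd t).dotProduct_mulVec_zero_iff _).1 (hq t (Finset.mem_univ _))
    have h2 := congrArg star (congrFun h1 (j, b))
    apply hφ
    rw [hφg]
    simp only [mulVec, dotProduct, star_sum, star_mul', Pi.star_apply, star_star,
      Pi.zero_apply, star_zero] at h2
    rw [← h2]
    refine Finset.sum_congr rfl fun q _ => ?_
    rw [(hpsd t).isHermitian.apply]
    simp
  obtain ⟨c, hc⟩ := (Submodule.mem_span_range_iff_exists_fun ℂ).1 hmem
  have := h (fun i => A t i j) (fun a => B t a b) c fun i a => by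
    have := congrFun hc (i, a)
    simpa [Finset.sum_apply] using this.symm
  rcases this with h1 | h1
  · have := congrFun h1 p.1
    simp only [Pi.zero_apply] at this
    simp [this]
  · have := congrFun h1 p.2
    simp only [Pi.zero_apply] at this
    simp [this]

lemma eb_conj {g : Type*} [Fintype g] [DecidableEq g] {Ψ : Matrix d d ℂ → Matrix e e ℂ}
    (h : IsEntanglementBreaking Ψ) (L : Matrix f e ℂ) (R : Matrix d g ℂ) :
    IsEntanglementBreaking (fun X : Matrix g g ℂ => L * Ψ (R * X * Rᴴ) * Lᴴ) := by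
  intro k M hM
  have h1 : blockwise (k := Fin k) (fun X : Matrix g g ℂ => L * Ψ (R * X * Rᴴ) * Lᴴ) M =
      blockwise (fun X : Matrix e e ℂ => L * X * Lᴴ)
        (blockwise Ψ (blockwise (fun X : Matrix g g ℂ => R * X * Rᴴ) M)) := rfl
  rw [h1, blockwise_conj R]
  obtain ⟨r, A, B, hA, hB, hs⟩ := h k _ (hM.mul_mul_conjTranspose_same
    ((1 : Matrix (Fin k) (Fin k) ℂ) ⊗ₖ R))
  rw [hs, blockwise_conj]
  refine ⟨r, A, fun i => L * B i * Lᴴ, hA, fun i => (hB i).mul_mul_conjTranspose_same _, ?_⟩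
  rw [Matrix.mul_sum, Matrix.sum_mul]
  refine Finset.sum_congr rfl fun i _ => ?_
  rw [conjTranspose_kronecker, ← mul_kronecker_mul, ← mul_kronecker_mul]
  simp

lemma trace_kmap (K : ι → Matrix e d ℂ) (X : Matrix d d ℂ) :
    (kmap K X).trace = ((∑ i, (K i)ᴴ * K i) * X).trace := by
  simp only [kmap, trace_sum, Matrix.sum_mul]
  refine Finset.sum_congr rfl fun i _ => ?_
  rw [trace_mul_comm, Matrix.mul_assoc]

open scoped MatrixOrder Matrix.Norms.L2Operator in
lemma exists_completion (H : Matrix d d ℂ) (hH : H.IsHermitian) :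
    ∃ γ : ℝ, 0 < γ ∧ ∃ B : Matrix d d ℂ, ((γ : ℂ) * γ) • H + Bᴴ * B = 1 := by
  have h1 : H ≤ algebraMap ℝ (Matrix d d ℂ) ‖H‖ := IsSelfAdjoint.le_algebraMap_norm_self hH
  set r : ℝ := ‖H‖ + 1 with hr
  have hr0 : 0 < r := by positivity
  have h2 : (r • (1 : Matrix d d ℂ) - H).PosSemidef := by
    have h3 : (algebraMap ℝ (Matrix d d ℂ) ‖H‖ - H).PosSemidef := h1
    have := h3.add (PosSemidef.one (n := d) (R := ℂ))
    convert this using 1
    rw [Algebra.algebraMap_eq_smul_one, hr, add_smul, one_smul]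
    abel
  obtain ⟨C, hC⟩ := CStarAlgebra.nonneg_iff_eq_star_mul_self.mp h2.nonneg
  refine ⟨Real.sqrt r⁻¹, Real.sqrt_pos.2 (inv_pos.2 hr0), ((Real.sqrt r⁻¹ : ℝ) : ℂ) • C, ?_⟩
  have hs : ((Real.sqrt r⁻¹ : ℝ) : ℂ) * (Real.sqrt r⁻¹ : ℝ) = (r : ℂ)⁻¹ := by
    rw [← Complex.ofReal_mul, Real.mul_self_sqrt (inv_pos.2 hr0).le, Complex.ofReal_inv]
  have hC' : Cᴴ * C = r • (1 : Matrix d d ℂ) - H := hC.symm
  rw [conjTranspose_smul, Matrix.smul_mul, Matrix.mul_smul, smul_smul, hC']
  have : star ((Real.sqrt r⁻¹ : ℝ) : ℂ) = (Real.sqrt r⁻¹ : ℝ) := Complex.conj_ofReal _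
  rw [this, hs, ← smul_add, add_sub_cancel]
  have hr1 : (r : ℂ) ≠ 0 := by exact_mod_cast hr0.ne'
  rw [← Complex.coe_smul, smul_smul, inv_mul_cancel₀ hr1, one_smul]

end Crest.Agent.R345
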