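import Mathlib

/-! A verified checker: every square minor of a matrix is non-zero modulo `p`, in the form
`weight(y) > number of columns orthogonal to y`. -/

set_option autoImplicit false

namespace Crest.Agent.R345

/-- Schur-complement column (fraction free, modulo `p`). -/
def schur (p : ℕ) (c c' : List ℕ) : List ℕ :=
  List.zipWith (fun s t => (c.headD 0 * t + (p - c'.headD 0 % p) * s) % p) c.tail c'.tail

def goChk (p : ℕ) (ih : List (List ℕ) → Bool) : List (List ℕ) → Bool
  | [] => true
  | c :: cs => (!(Nat.beq (c.headD 0 % p) 0)) && ih (cs.map (schur p c)) && goChk p ih cs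

def chk (p : ℕ) : ℕ → List (List ℕ) → Bool
  | 0, _ => true
  | n + 1, cols => cols.isEmpty || (chk p n (cols.map List.tail) && goChk p (chk p n) cols)

variable {κ : Type*} [Field κ]

/-- dot product of a vector over `κ` with a list of naturals -/
def dotL : List κ → List ℕ → κ
  | a :: y, x :: c => a * (x : κ) + dotL y c
  | _, _ => 0

open Classical in
noncomputable def wt (y : List κ) : ℕ := y.countP (fun a => decide (a ≠ 0))

open Classical in
noncomputable def zc (y : List κ) (cols : List (List ℕ)) : ℕ :=
  cols.countP (fun c => decide (dotL y c = 0))

lemma dotL_cons (a : κ) (y : List κ) (c : List ℕ) (hc : c ≠ []) :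
    dotL (a :: y) c = a * ((c.headD 0 : ℕ) : κ) + dotL y c.tail := by
  cases c with
  | nil => exact absurd rfl hc
  | cons x c => rfl

lemma dotL_of_wt (y : List κ) (h : wt y = 0) (c : List ℕ) : dotL y c = 0 := by
  induction y generalizing c with
  | nil => cases c <;> rfl
  | cons a y ih =>
    cases c with
    | nil => rfl
    | cons x c =>
      have ha : a = 0 := by
        by_contra ha
        simp [wt, ha] at h
      have : wt y = 0 := by simpa [wt, ha] using h
      simp [dotL, ha, ih this]

lemma dotL_zip (p : ℕ) (hp : (p : κ) = 0) (x z : ℕ) (y : List κ) (s t : List ℕ)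
    (h : s.length = t.length) :
    dotL y (List.zipWith (fun s t => (x * t + z * s) % p) s t) =
      (x : κ) * dotL y t + (z : κ) * dotL y s := by
  induction y generalizing s t with
  | nil => simp [dotL]
  | cons a y ih =>
    cases s with
    | nil =>
      cases t with
      | nil => simp [dotL]
      | cons _ _ => simp at h
    | cons s0 s =>
      cases t with
      | nil => simp at h
      | cons t0 t =>
        have h' : s.length = t.length := by simpa using h
        have hm : ∀ m : ℕ, ((m % p : ℕ) : κ) = (m : κ) := by
          intro m
          conv_rhs => rw [← Nat.mod_add_div m p]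
          push_cast
          rw [hp]; ring
        simp only [List.zipWith_cons_cons, dotL, ih s t h', hm]
        push_cast
        ring

lemma cast_mod (p : ℕ) (hp : (p : κ) = 0) (m : ℕ) : ((m % p : ℕ) : κ) = (m : κ) := by
  conv_rhs => rw [← Nat.mod_add_div m p]
  push_cast
  rw [hp]; ring

theorem chk_sound (p : ℕ) (hpp : p.Prime) (hp : (p : κ) = 0) :
    ∀ (n : ℕ) (cols : List (List ℕ)), chk p n cols = true → (∀ c ∈ cols, c.length = n) →
      ∀ y : List κ, y.length = n → wt y ≠ 0 → zc y cols < wt y := by
  classical
  have : CharP κ p := (CharP.charP_iff_prime_eq_zero (R := κ) hpp).2 hp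
  intro n
  induction n with
  | zero =>
    intro cols _ _ y hy hw
    have : y = [] := List.length_eq_zero_iff.1 hy
    subst this
    simp [wt] at hw
  | succ n ih =>
    intro cols hc hl y hy hw
    obtain ⟨a, y, rfl⟩ := List.exists_cons_of_length_eq_add_one hy
    have hy' : y.length = n := by simpa using hy
    simp only [chk, Bool.or_eq_true, Bool.and_eq_true] at hc
    rcases hc with hc | ⟨hc1, hc2⟩
    · have : cols = [] := List.isEmpty_iff.1 hc
      subst this
      simp only [zc, List.countP_nil]
      omega
    have hne : ∀ c ∈ cols, c ≠ [] := by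
      intro c hc h
      have := hl c hc
      simp [h] at this
    by_cases ha : a = 0
    · have hw' : wt (a :: y) = wt y := by simp [wt, ha]
      rw [hw'] at hw ⊢
      have := ih _ hc1 (by
        intro c hc
        obtain ⟨c', hc', rfl⟩ := List.mem_map.1 hc
        simp [hl c' hc']) y hy' hw
      refine lt_of_eq_of_lt ?_ this
      simp only [zc, List.countP_map]
      refine List.countP_congr ?_
      intro c hc
      simp only [Function.comp, dotL_cons a y c (hne c hc)]
      simp [ha]
    · have hw' : wt (a :: y) = wt y + 1 := by simp [wt, ha]
      rw [hw']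
      clear hc1 hw hw'
      induction cols with
      | nil => simp [zc]
      | cons c cs ihc =>
        simp only [goChk, Bool.and_eq_true, Bool.not_eq_true'] at hc2
        obtain ⟨⟨h1, h2⟩, h3⟩ := hc2
        have hl' : ∀ c ∈ cs, c.length = n + 1 := fun c' hc' => hl c' (List.mem_cons_of_mem _ hc')
        have hne' : ∀ c ∈ cs, c ≠ [] := fun c' hc' => hne c' (List.mem_cons_of_mem _ hc')
        by_cases hz : dotL (a :: y) c = 0
        · have hx : ((c.headD 0 : ℕ) : κ) ≠ 0 := by
            intro h0
            have := (CharP.cast_eq_zero_iff κ p _).1 h0
            have h4 : c.headD 0 % p = 0 := Nat.mod_eq_zero_of_dvd this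
            rw [h4] at h1
            simp at h1
          have hz' := hz
          rw [dotL_cons a y c (hne c List.mem_cons_self)] at hz'
          have hwy : wt y ≠ 0 := by
            intro h0
            rw [dotL_of_wt y h0, add_zero] at hz'
            exact (mul_ne_zero ha hx) hz'
          have hlt := ih _ h2 (by
            intro d hd
            obtain ⟨c', hc', rfl⟩ := List.mem_map.1 hd
            simp [schur, hl' c' hc', hl c List.mem_cons_self]) y hy' hwy
          have hle : zc (a :: y) cs ≤ zc y (cs.map (schur p c)) := by
            simp only [zc, List.countP_map]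
            refine List.countP_mono_left ?_
            intro c' hc' h0
            simp only [decide_eq_true_eq, Function.comp] at h0 ⊢
            rw [dotL_cons a y c' (hne' c' hc')] at h0
            rw [schur, dotL_zip p hp _ _ y _ _ (by simp [hl' c' hc', hl c List.mem_cons_self])]
            have hs : ((p - c'.headD 0 % p : ℕ) : κ) = - ((c'.headD 0 : ℕ) : κ) := by
              rw [Nat.cast_sub (Nat.mod_lt _ hpp.pos).le, hp, cast_mod p hp, zero_sub]
            rw [hs]
            linear_combination ((c.headD 0 : ℕ) : κ) * h0 - ((c'.headD 0 : ℕ) : κ) * hz'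
          have : zc (a :: y) (c :: cs) = zc (a :: y) cs + 1 := by simp [zc, hz]
          omega
        · have : zc (a :: y) (c :: cs) = zc (a :: y) cs := by simp [zc, hz]
          rw [this]
          exact ihc hl' h3 hne'

end Crest.Agent.R345
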