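import Crest.Agent.R345.Core
import Crest.Agent.R345.Kraus

/-! The two PPT maps on `10 × 10` matrices and the channel on `21 × 21` matrices. -/

set_option autoImplicit false

namespace Crest.Agent.R345

open Crest.Quantum Matrix
open scoped ComplexOrder Kronecker

/-- complex matrix of an integer matrix -/
noncomputable abbrev cz {m n : Type*} (A : Matrix m n ℤ) : Matrix m n ℂ :=
  A.map (Int.cast : ℤ → ℂ)

lemma cz_real {m n : Type*} (A : Matrix m n ℤ) : (cz A)ᴴ = (cz A)ᵀ := by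
  ext i j
  simp

def idx (x : Fin 4 × Fin 4) : Fin 10 :=
  Fin.ofNat 10 (([[0, 1, 2, 3], [1, 4, 5, 6], [2, 5, 7, 8], [3, 6, 8, 9]].getD x.1 []).getD x.2 0)

lemma idx_spec : ∀ a b : Fin 4, (p1 (idx (a, b)) = a ∧ p2 (idx (a, b)) = b) ∨
    (p1 (idx (a, b)) = b ∧ p2 (idx (a, b)) = a) := by decide

def Vm : Matrix (Fin 4 × Fin 4) (Fin 10) ℤ :=
  Matrix.of fun x s => if idx x = s then 1 else 0

def q1 (s : Fin 10) : Fin 4 := Fin.ofNat 4 ([0, 0, 0, 1, 1, 2].getD s 0)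
def q2 (s : Fin 10) : Fin 4 := Fin.ofNat 4 ([1, 2, 3, 2, 3, 3].getD s 0)
def r1 (s : Fin 10) : Fin 4 := Fin.ofNat 4 ([2, 3, 1, 0, 2, 0].getD s 0)
def r2 (s : Fin 10) : Fin 4 := Fin.ofNat 4 ([3, 1, 2, 3, 0, 1].getD s 0)

/-- projection onto the second exterior power (the last four rows vanish) -/
def Pm : Matrix (Fin 10) (Fin 4 × Fin 4) ℤ :=
  Matrix.of fun s x => (if x = (q1 s, q2 s) then 1 else 0) - (if x = (q2 s, q1 s) then 1 else 0)

/-- the same followed by the Hodge star -/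
def Qm : Matrix (Fin 10) (Fin 4 × Fin 4) ℤ :=
  Matrix.of fun s x => (if x = (r1 s, r2 s) then 1 else 0) - (if x = (r2 s, r1 s) then 1 else 0)

noncomputable def KK (q : Fin 7 × Fin 7) : Matrix (Fin 4 × Fin 4) (Fin 4 × Fin 4) ℂ :=
  cz (K q.1) ⊗ₖ cz (K q.2)

noncomputable def K1 (q : Fin 7 × Fin 7) : Matrix (Fin 10) (Fin 10) ℂ := cz Pm * KK q * cz Vm

noncomputable def K2 (q : Fin 7 × Fin 7) : Matrix (Fin 10) (Fin 10) ℂ :=
  (cz Vm)ᵀ * (KK q)ᵀ * (cz Qm)ᵀ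

lemma KK_flat (a b c d : Fin 4 × Fin 4) :
    ∑ q, KK q a b * KK q c d = ∑ q, KK q a d * KK q c b := by
  have key : ∀ a b c d : Fin 4 × Fin 4, ∑ q, KK q a b * KK q c d =
      ((∑ i, K i a.1 b.1 * K i c.1 d.1 : ℤ) : ℂ) * ((∑ i, K i a.2 b.2 * K i c.2 d.2 : ℤ) : ℂ) := by
    intro a b c d
    push_cast
    rw [Finset.sum_mul_sum, Fintype.sum_prod_type]
    refine Finset.sum_congr rfl fun i _ => Finset.sum_congr rfl fun j _ => ?_
    simp only [KK, kroneckerMap_apply, map_apply]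
    ring
  rw [key, key, K_flat a.1, K_flat a.2]

lemma KK_real (q : Fin 7 × Fin 7) (a b : Fin 4 × Fin 4) : star (KK q a b) = KK q a b := by
  simp [KK]

lemma K1_sym : SymOut K1 := by
  have h : SymOut KK := symOut_of_flat KK KK_real fun a b c d => by
    rw [KK_flat]
    exact Finset.sum_congr rfl fun q _ => mul_comm _ _
  exact h.mul _ (cz_real _) _

lemma K2_sym : SymOut K2 := by
  have h : SymOut (fun q => (KK q)ᵀ) :=
    symOut_of_flat _ (fun q a b => KK_real q b a) fun a b c d => KK_flat b a d c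
  exact h.mul _ (by ext i j; simp) _

lemma Vm_nu (b : Fin 4 → ℂ) : cz Vm *ᵥ nu b = fun x => b x.1 * b x.2 := by
  funext ⟨x, y⟩
  rcases idx_spec x y with ⟨h1, h2⟩ | ⟨h1, h2⟩ <;>
    simp [mulVec, dotProduct, Vm, nu, h1, h2, mul_comm]

lemma KK_mulVec (q : Fin 7 × Fin 7) (b : Fin 4 → ℤ) :
    KK q *ᵥ (fun x => (b x.1 : ℂ) * (b x.2 : ℂ)) =
      fun x => ((Kv q.1 b x.1 : ℤ) : ℂ) * ((Kv q.2 b x.2 : ℤ) : ℂ) := by
  funext ⟨x, y⟩
  simp [mulVec, dotProduct, KK, Fintype.sum_prod_type, Fin.sum_univ_four, Kv]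
  ring

lemma Pm_mulVec (z w : Fin 4 → ℂ) (s : Fin 10) :
    (cz Pm *ᵥ fun p => z p.1 * w p.2) s = z (q1 s) * w (q2 s) - z (q2 s) * w (q1 s) := by
  simp [mulVec, dotProduct, Pm, sub_mul, Finset.sum_sub_distrib]

lemma Qm_mulVec (z w : Fin 4 → ℂ) (s : Fin 10) :
    (cz Qm *ᵥ fun p => z p.1 * w p.2) s = z (r1 s) * w (r2 s) - z (r2 s) * w (r1 s) := by
  simp [mulVec, dotProduct, Qm, sub_mul, Finset.sum_sub_distrib]

lemma QP_det (x y z w : Fin 4 → ℂ) :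
    (cz Qm *ᵥ fun p => z p.1 * w p.2) ⬝ᵥ (cz Pm *ᵥ fun p => x p.1 * y p.2) = det4 x y z w := by
  simp only [dotProduct, Pm_mulVec, Qm_mulVec]
  simp [Fin.sum_univ_succ, q1, q2, r1, r2, Fin.ofNat, det4]
  ring

lemma eval_K21 (l k : Fin 7 × Fin 7) (b : Fin 4 → ℤ) :
    nu (fun a => (b a : ℂ)) ⬝ᵥ ((K2 l * K1 k) *ᵥ nu (fun a => (b a : ℂ))) =
      ((det4 (Kv k.1 b) (Kv k.2 b) (Kv l.1 b) (Kv l.2 b) : ℤ) : ℂ) := by
  have h2 : K2 l = (cz Qm * KK l * cz Vm)ᵀ := by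
    simp only [K2, transpose_mul, Matrix.mul_assoc]
  rw [← mulVec_mulVec, dotProduct_mulVec, h2, vecMul_transpose, K1]
  simp only [← mulVec_mulVec, Vm_nu, KK_mulVec]
  rw [QP_det (fun a => ((Kv k.1 b a : ℤ) : ℂ)) (fun a => ((Kv k.2 b a : ℤ) : ℂ))
    (fun a => ((Kv l.1 b a : ℤ) : ℂ)) (fun a => ((Kv l.2 b a : ℤ) : ℂ))]
  simp [det4]

noncomputable def K21 (q : (Fin 7 × Fin 7) × (Fin 7 × Fin 7)) : Matrix (Fin 10) (Fin 10) ℂ :=
  K2 q.1 * K1 q.2

lemma comp_eq : kmap K2 ∘ kmap K1 = kmap K21 := kmap_comp K2 K1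

lemma K21_prodFree : ProdFree K21 := by
  intro u v c h
  refine core_final (fun q : (Fin 7 × Fin 7) × (Fin 7 × Fin 7) => ![q.2.1, q.2.2, q.1.1, q.1.2])
    u v c fun b => ?_
  have h1 : ∀ s, ((nu b s : ℤ) : ℂ) = nu (fun a => (b a : ℂ)) s := by
    intro s; simp [nu]
  simp only [h1, cons_val_zero, cons_val_one, cons_val]
  simp only [← eval_K21]
  set n := nu (fun a => (b a : ℂ))
  calc (∑ s, n s * u s) * ∑ s, n s * v s = ∑ a, ∑ i, n a * (u i * v a) * n i := by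
        rw [mul_comm, Finset.sum_mul_sum]
        exact Finset.sum_congr rfl fun a _ => Finset.sum_congr rfl fun i _ => by ring
    _ = _ := by
        simp only [h, dotProduct, mulVec, Finset.mul_sum, Finset.sum_mul, K21]
        conv_rhs => rw [Finset.sum_comm]
        refine Finset.sum_congr rfl fun a _ => ?_
        rw [Finset.sum_comm]
        exact Finset.sum_congr rfl fun q _ => Finset.sum_congr rfl fun i _ => by ring

lemma K21_ne : choiMatrix (kmap K21) ≠ 0 := by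
  have h := eval_K21 (2, 3) (0, 1) ![1, 1, 1, 1]
  have h0 : det4 (Kv 0 ![1, 1, 1, 1]) (Kv 1 ![1, 1, 1, 1]) (Kv 2 ![1, 1, 1, 1])
      (Kv 3 ![1, 1, 1, 1]) ≠ 0 := by decide +kernel
  have h1 : K21 ((2, 3), (0, 1)) ≠ 0 := by
    intro h2
    rw [show K2 (2, 3) * K1 (0, 1) = K21 ((2, 3), (0, 1)) from rfl, h2] at h
    simp only [zero_mulVec, dotProduct_zero] at h
    exact h0 (by exact_mod_cast h.symm)
  obtain ⟨a, ha⟩ := Function.ne_iff.1 h1
  obtain ⟨i, hi⟩ := Function.ne_iff.1 ha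
  exact choi_ne_zero _ a i hi

end Crest.Agent.R345
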